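import Vale.Agent.P192.R2.H849.Per

set_option linter.all false

/-! Paths in product systems over the grid: recombination of windows from a box. -/

namespace Vale.Agent.P192.R2.H360

/-- (E2) a system which is good near `(x, y)` and colorings with windows from there -/
theorem good_of_box {A B : Type} {M : ℕ} (R : Set (FreeGroup (Fin M))) (C : ℤ) (hC : 0 ≤ C)
    (N : ℕ) (h2 : 2 ≤ N) (hN : ∀ w ∈ R, w.norm ≤ N) (δ : Fin M × Bool → A → B → ℤ × ℤ)
    (hbd : ∀ l α β, |(δ l α β).1| ≤ C ∧ |(δ l α β).2| ≤ C)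
    (a a' : ℤ → A) (b b' : ℤ → B) (x y L : ℤ)
    (hinv : ∀ i ε (z : ℤ × ℤ), |z.1 - x| ≤ L → |z.2 - y| ≤ L →
      act δ a b (i, ε) (act δ a b (i, !ε) z) = z)
    (hrel : ∀ w ∈ R, ∀ z : ℤ × ℤ, |z.1 - x| ≤ L → |z.2 - y| ≤ L → run δ a b w.toWord z = z)
    (r : ℤ) (hr : C * N ≤ r)
    (ha : ∀ u, ∃ v, |v - x| ≤ L ∧ win r a' u a v)
    (hb : ∀ u, ∃ v, |v - y| ≤ L ∧ win r b' u b v) : Good R C δ a' b' := by
  have key : ∀ w : List (Fin M × Bool), w.length ≤ N →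
      (∀ v : ℤ × ℤ, |v.1 - x| ≤ L → |v.2 - y| ≤ L → run δ a b w v = v) →
      ∀ z, run δ a' b' w z = z := by
    intro w hw hv z
    obtain ⟨v1, hx1, hv1⟩ := ha z.1
    obtain ⟨v2, hy2, hv2⟩ := hb z.2
    have hlen : C * (w.length : ℤ) ≤ r :=
      (mul_le_mul_of_nonneg_left (by exact_mod_cast hw) hC).trans hr
    obtain ⟨d, -, -, h3, h4⟩ := run_transfer C δ a a' b b' hbd r z (v1, v2) hv1 hv2 w hlen
    rw [hv (v1, v2) hx1 hy2] at h4
    have hd : d = 0 := by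
      have := h4.symm
      simpa using this
    rw [h3, hd, add_zero]
  refine ⟨hbd, fun i ε z => ?_, fun w hw z => ?_⟩
  · exact key [(i, ε), (i, !ε)] h2 (fun v h1 h3 => hinv i ε v h1 h3) z
  · exact key w.toWord (hN w hw) (fun v h1 h3 => hrel w hw v h1 h3) z

end Vale.Agent.P192.R2.H360
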