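import Vale.Agent.P192.R2.H360.Prune

set_option linter.all false

/-! Pruning: the uniform theorem, from the bound for the orbits. -/

namespace Vale.Agent.P192.R2.H360

open Vale.Agent.P192 Vale.Agent.P192.H437 Vale.Agent.P192.R2.H577

theorem Prune.restrict {G : Type} [Group G] {S S' : Set G} (hSS : S' ⊆ S) {m : ℕ} {Y A : Type}
    {Ω Ω₀ : Set (Y → A)} {act : (Y → A) → (G →* Equiv.Perm Y)} {Rd : Y → Finset Y}
    (h : Prune S m Ω Ω₀ act Rd) : Prune S' m Ω Ω₀ act Rd where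
  self := h.self
  card := h.card
  dual := h.dual
  loc := fun s hs => h.loc s (hs.imp (fun h => hSS h) (fun h => hSS h))
  back := h.back
  few := fun s hs => h.few s (hs.imp (fun h => hSS h) (fun h => hSS h))
  glue := h.glue

/-- (P4) uniform form, from (P3) and `growth_uniform`, `exists_tuple` -/
theorem prune_uniform_of
    (P3 : ∀ (G : Type) [Group G] [Group.IsFinitelyPresented G], IsMulTorsion G →
      ∀ (S : Set G), S.Finite → Subgroup.closure S = ⊤ → ∀ m : ℕ,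
      ∃ M : ℕ, ∀ (Y A : Type) (Ω Ω₀ : Set (Y → A)) (act : (Y → A) → (G →* Equiv.Perm Y))
        (Rd : Y → Finset Y), Prune S m Ω Ω₀ act Rd →
        ∀ ω ∈ Ω, ∀ y, {z | ∃ g, act ω g y = z}.encard ≤ M)
    (G : Type) [Group G] [Group.IsFinitelyPresented G] (hG : IsMulTorsion G)
    (S : Set G) (hS : Subgroup.closure S = ⊤) (m : ℕ) :
    ∃ N : Subgroup G, N.Normal ∧ N.FiniteIndex ∧
      ∀ (Y A : Type) (Ω Ω₀ : Set (Y → A)) (act : (Y → A) → (G →* Equiv.Perm Y))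
      (Rd : Y → Finset Y), Prune S m Ω Ω₀ act Rd → ∀ ω ∈ Ω, ∀ g ∈ N, act ω g = 1 := by
  obtain ⟨M0, σ, hσS, hσ, -⟩ := exists_tuple G S hS
  obtain ⟨M, hM⟩ := P3 G hG (Set.range σ) (Set.finite_range σ) hσ m
  obtain ⟨c, hc, hgr⟩ := growth_uniform.{0, 0} G hG (Set.range σ) hσ
  obtain ⟨n, hn⟩ : ∃ n : ℕ, (M : ℝ) < c * (n : ℝ) ^ 2 := by
    obtain ⟨n, hn⟩ := exists_nat_gt ((M : ℝ) / c)
    refine ⟨n + 1, ?_⟩
    rw [div_lt_iff₀ hc] at hn
    push_cast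
    have h1 : (0 : ℝ) ≤ n := Nat.cast_nonneg _
    have h2 : (n : ℝ) ≤ ((n : ℝ) + 1) ^ 2 := by nlinarith
    have h3 : c * n ≤ c * ((n : ℝ) + 1) ^ 2 := mul_le_mul_of_nonneg_left h2 hc.le
    linarith
  obtain ⟨N, hN1, hN2, hN3⟩ := hgr n M hn
  refine ⟨N, hN1, hN2, ?_⟩
  intro Y A Ω Ω₀ act Rd hP ω hω g hg
  letI inst : MulAction G Y := MulAction.compHom Y (act ω)
  have hsm : ∀ (g : G) (y : Y), g • y = act ω g y := fun g y => rfl
  have h1 := hN3 Y (fun y => ?_) g hg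
  · ext1 y
    rw [← hsm, h1 y, Equiv.Perm.one_apply]
  · refine (Set.encard_le_encard ?_).trans (hM Y A Ω Ω₀ act Rd (hP.restrict hσS) ω hω y)
    rintro z ⟨w, -, -, rfl⟩
    exact ⟨w.prod, rfl⟩

end Vale.Agent.P192.R2.H360
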