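import Vale.Agent.P192.R2.H360.Defs

set_option linter.all false

/-! Paths in product systems over the grid: periodic extensions, recombination of windows. -/

namespace Vale.Agent.P192.R2.H360

/-- the periodic extension, first form -/
theorem periodize_lt {A : Type} (a : ℤ → A) (x p r : ℤ) (hr : 0 ≤ r) (hp : 0 < p)
    (h : ∀ t : ℤ, |t| ≤ r → a (x + t) = a (x + p + t)) :
    (∀ t, a (x + (t + p - x) % p) = a (x + (t - x) % p)) ∧
      (∀ t, x - r ≤ t → t ≤ x + p + r → a (x + (t - x) % p) = a t) := by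
  have hper : ∀ s, x - r ≤ s → s ≤ x + r → a s = a (s + p) := by
    intro s h1 h2
    have h3 := h (s - x) (by rw [abs_le]; constructor <;> linarith)
    have e1 : x + (s - x) = s := by ring
    have e2 : x + p + (s - x) = s + p := by ring
    rw [e1, e2] at h3
    exact h3
  refine ⟨fun t => ?_, ?_⟩
  · have e1 : t + p - x = (t - x) + p := by ring
    rw [e1, Int.add_emod_right]
  · have hup : ∀ k : ℕ, ∀ q : ℤ, 0 ≤ q → q < p → x + (q + k * p) ≤ x + p + r →
        a (x + q) = a (x + (q + k * p)) := by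
      intro k
      induction k with
      | zero => intro q _ _ _; simp
      | succ k ih =>
        intro q h0 h1 h2
        push_cast at h2
        have hkp : 0 ≤ (k : ℤ) * p := by positivity
        have h3 := ih q h0 h1 (by linarith)
        have h4 := hper (x + (q + k * p)) (by linarith) (by linarith)
        rw [h3, h4]
        congr 1
        push_cast
        ring
    have hdn : ∀ k : ℕ, ∀ q : ℤ, 0 ≤ q → q < p → x - r ≤ x + (q - k * p) →
        a (x + q) = a (x + (q - k * p)) := by
      intro k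
      induction k with
      | zero => intro q _ _ _; simp
      | succ k ih =>
        intro q h0 h1 h2
        push_cast at h2
        have hkp : 0 ≤ (k : ℤ) * p := by positivity
        have h3 := ih q h0 h1 (by linarith)
        have h4 := hper (x + (q - (k + 1) * p)) (by linarith) (by linarith)
        rw [h3]
        push_cast
        rw [h4]
        congr 1
        ring
    intro t h1 h2
    have hq0 : 0 ≤ (t - x) % p := Int.emod_nonneg _ hp.ne'
    have hq1 : (t - x) % p < p := Int.emod_lt_of_pos _ hp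
    have hdiv : (t - x) % p + p * ((t - x) / p) = t - x := Int.emod_add_mul_ediv _ _
    rcases Int.eq_nat_or_neg ((t - x) / p) with ⟨k, hk | hk⟩
    · have e1 : x + ((t - x) % p + k * p) = t := by
        rw [← hk, mul_comm ((t - x) / p) p, hdiv]; ring
      have h3 := hup k _ hq0 hq1 (by rw [e1]; exact h2)
      rw [h3, e1]
    · have e1 : x + ((t - x) % p - k * p) = t := by
        have e2 : (t - x) % p - k * p = (t - x) % p + p * ((t - x) / p) := by rw [hk]; ring
        rw [e2, hdiv]; ring
      have h3 := hdn k _ hq0 hq1 (by rw [e1]; exact h1)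
      rw [h3, e1]

/-- (B1) periodic extension between two places with equal windows -/
theorem periodize {A : Type} (a : ℤ → A) (x x' r : ℤ) (hr : 0 ≤ r) (h : win r a x a x') :
    ∃ a' : ℤ → A, (∀ t, a' (t + (x' - x)) = a' t) ∧
      (∀ t, (x ≠ x' → min x x' - r ≤ t ∧ t ≤ max x x' + r) → a' t = a t) ∧
      ∀ u, ∃ v, win r a' u a v := by
  have key : ∀ y y' : ℤ, y < y' → win r a y a y' → ∃ a' : ℤ → A,
      (∀ t, a' (t + (y' - y)) = a' t) ∧
      (∀ t, y - r ≤ t → t ≤ y' + r → a' t = a t) ∧ ∀ u, ∃ v, win r a' u a v := by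
    intro y y' hy hw
    have hp : 0 < y' - y := by linarith
    obtain ⟨h1, h2⟩ := periodize_lt a y (y' - y) r hr hp (fun t ht => by
      have := hw t ht
      rw [this]
      congr 1
      ring)
    refine ⟨fun t => a (y + (t - y) % (y' - y)), fun t => h1 t, fun t ht1 ht2 => ?_, fun u => ?_⟩
    · exact h2 t ht1 (by linarith)
    · refine ⟨y + (u - y) % (y' - y), fun t ht => ?_⟩
      rw [abs_le] at ht
      have hq0 : 0 ≤ (u - y) % (y' - y) := Int.emod_nonneg _ hp.ne'
      have hq1 : (u - y) % (y' - y) < y' - y := Int.emod_lt_of_pos _ hp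
      have h3 := h2 (y + (u - y) % (y' - y) + t) (by linarith) (by linarith)
      rw [← h3]
      show a (y + (u + t - y) % (y' - y)) = _
      congr 2
      have e1 : y + (u - y) % (y' - y) + t - y = (u - y) % (y' - y) + t := by ring
      have e2 : u + t - y = (u - y) + t := by ring
      rw [e1, e2, Int.emod_add_emod]
  rcases lt_trichotomy x x' with hx | hx | hx
  · obtain ⟨a', h1, h2, h3⟩ := key x x' hx h
    refine ⟨a', h1, fun t ht => ?_, h3⟩
    obtain ⟨h4, h5⟩ := ht hx.ne
    rw [min_eq_left hx.le] at h4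
    rw [max_eq_right hx.le] at h5
    exact h2 t h4 h5
  · subst hx
    exact ⟨a, fun t => by simp, fun t _ => rfl, fun u => ⟨u, fun t _ => rfl⟩⟩
  · obtain ⟨a', h1, h2, h3⟩ := key x' x hx (fun t ht => (h t ht).symm)
    refine ⟨a', fun t => ?_, fun t ht => ?_, h3⟩
    · have h4 := h1 (t + (x' - x))
      rw [← h4]
      congr 1
      ring
    · obtain ⟨h4, h5⟩ := ht hx.ne'
      rw [min_eq_right hx.le] at h4
      rw [max_eq_left hx.le] at h5
      exact h2 t h4 h5

/-- a word acts in the same way at two places with equal windows -/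
theorem run_transfer {A B : Type} {M : ℕ} (C : ℤ) (δ : Fin M × Bool → A → B → ℤ × ℤ)
    (a a' : ℤ → A) (b b' : ℤ → B)
    (bd : ∀ l α β, |(δ l α β).1| ≤ C ∧ |(δ l α β).2| ≤ C) (r : ℤ)
    (z v : ℤ × ℤ) (ha : win r a' z.1 a v.1) (hb : win r b' z.2 b v.2) :
    ∀ w : List (Fin M × Bool), C * w.length ≤ r →
      ∃ d : ℤ × ℤ, |d.1| ≤ C * w.length ∧ |d.2| ≤ C * w.length ∧
        run δ a' b' w z = z + d ∧ run δ a b w v = v + d := by
  intro w
  induction w with
  | nil =>
    intro _
    exact ⟨0, by simp, by simp, by simp [run], by simp [run]⟩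
  | cons l w ih =>
    intro hw
    have hC : 0 ≤ C := (abs_nonneg _).trans (bd l (a 0) (b 0)).1
    have hlen : C * ((l :: w).length : ℤ) = C * w.length + C := by
      rw [List.length_cons]; push_cast; ring
    rw [hlen] at hw ⊢
    obtain ⟨d, h1, h2, h3, h4⟩ := ih (by linarith)
    have ea : a' (z + d).1 = a (v + d).1 := ha d.1 (by linarith)
    have eb : b' (z + d).2 = b (v + d).2 := hb d.2 (by linarith)
    refine ⟨d + δ l (a (v + d).1) (b (v + d).2), ?_, ?_, ?_, ?_⟩
    · have h5 := (bd l (a (v + d).1) (b (v + d).2)).1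
      have h6 := abs_add_le d.1 (δ l (a (v + d).1) (b (v + d).2)).1
      show |d.1 + (δ l (a (v + d).1) (b (v + d).2)).1| ≤ _
      linarith
    · have h5 := (bd l (a (v + d).1) (b (v + d).2)).2
      have h6 := abs_add_le d.2 (δ l (a (v + d).1) (b (v + d).2)).2
      show |d.2 + (δ l (a (v + d).1) (b (v + d).2)).2| ≤ _
      linarith
    · show act δ a' b' l (run δ a' b' w z) = _
      rw [h3, act, ea, eb, add_assoc]
    · show act δ a b l (run δ a b w v) = _
      rw [h4, act, add_assoc]

/-- (B2) good systems are closed under recombination of windows -/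
theorem good_of_win {A B : Type} {M : ℕ} (R : Set (FreeGroup (Fin M))) (C : ℤ) (N : ℕ)
    (h2 : 2 ≤ N) (hN : ∀ w ∈ R, w.norm ≤ N) (δ : Fin M × Bool → A → B → ℤ × ℤ)
    (a a' : ℤ → A) (b b' : ℤ → B) (hg : Good R C δ a b) (r : ℤ) (hr : C * N ≤ r)
    (ha : ∀ u, ∃ v, win r a' u a v) (hb : ∀ u, ∃ v, win r b' u b v) : Good R C δ a' b' := by
  have key : ∀ w : List (Fin M × Bool), w.length ≤ N → (∀ v, run δ a b w v = v) →
      ∀ z, run δ a' b' w z = z := by
    intro w hw hv z
    obtain ⟨v1, hv1⟩ := ha z.1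
    obtain ⟨v2, hv2⟩ := hb z.2
    rcases w with _ | ⟨l, w⟩
    · rfl
    have hC : 0 ≤ C := (abs_nonneg _).trans (hg.bd l (a 0) (b 0)).1
    have hlen : C * ((l :: w).length : ℤ) ≤ r :=
      (mul_le_mul_of_nonneg_left (by exact_mod_cast hw) hC).trans hr
    obtain ⟨d, -, -, h3, h4⟩ := run_transfer C δ a a' b b' hg.bd r z (v1, v2) hv1 hv2 (l :: w)
      hlen
    rw [hv] at h4
    have hd : d = 0 := by
      have := h4.symm
      simpa using this
    rw [h3, hd, add_zero]
  refine ⟨hg.bd, fun i ε z => ?_, fun w hw z => ?_⟩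
  · exact key [(i, ε), (i, !ε)] h2 (fun v => hg.inv i ε v) z
  · exact key w.toWord (hN w hw) (fun v => hg.rel w hw v) z

end Vale.Agent.P192.R2.H360
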