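import Vale.Agent.P192.R2.H360.R.Defs

set_option linter.all false

/-! Machines over a group: row R1 (separation). -/

namespace Vale.Agent.P192.R2.H360.R

open SimpleGraph Vale.Agent.P192 Vale.Agent.P192.H437 Vale.Agent.P192.H593 Vale.Agent.P192.R2.H577

universe u v

theorem r1_cut {X : Type u} {Γ : SimpleGraph X} (hΓ : Γ.Connected) (A : Set X) (x m : X)
    (hx : x ∈ A) (hm : m ∉ A) :
    ∃ E : Set X, m ∉ E ∧ x ∈ E ∧ (∀ a ∈ E, ∀ b ∈ E, cn Γ E a b) ∧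
      (∀ a ∉ E, ∀ b ∉ E, cn Γ Eᶜ a b) ∧
      ∀ a b, a ∈ E → b ∉ E → Γ.Adj a b → a ∈ A ∧ b ∉ A := by
  classical
  set A₁ : Set X := {z | cn Γ A x z} with hA₁
  have hA₁A : A₁ ⊆ A := fun z hz => cn_mem hz hx
  set F : Set X := {z | cn Γ A₁ᶜ m z} with hF
  have hmA₁ : m ∈ A₁ᶜ := fun h => hm (hA₁A h)
  have hFA : F ⊆ A₁ᶜ := fun z hz => cn_mem hz hmA₁
  have hFF : ∀ z, cn Γ A₁ᶜ m z → cn Γ F m z := fun z hz => cn_self hz
  have hA1A1 : ∀ z, cn Γ A x z → cn Γ A₁ x z := fun z hz => cn_self hz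
  have hA₁E : A₁ ⊆ Fᶜ := fun z hz h => hFA h hz
  -- every point outside `F` is joined to `x`
  have hconn : ∀ a ∉ F, cn Γ Fᶜ a x := by
    intro a ha
    obtain ⟨p⟩ := hΓ.preconnected a x
    induction p with
    | nil => exact Relation.ReflTransGen.refl
    | @cons a b x hadj q ih =>
      by_cases hb : b ∈ F
      · have haA₁ : a ∈ A₁ := by
          by_contra h
          exact ha (Relation.ReflTransGen.tail hb ⟨hFA hb, h, hadj.symm⟩)
        exact cn_mono hA₁E (cn_symm (hA1A1 a haA₁))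
      · exact Relation.ReflTransGen.head ⟨ha, hb, hadj⟩
          (ih hx hA₁ hA₁A hF hmA₁ hFA hFF hA1A1 hA₁E hb)
  refine ⟨Fᶜ, fun h => h Relation.ReflTransGen.refl, hA₁E Relation.ReflTransGen.refl, ?_, ?_, ?_⟩
  · intro a ha b hb
    exact (hconn a ha).trans (cn_symm (hconn b hb))
  · intro a ha b hb
    rw [Set.notMem_compl_iff] at ha hb
    rw [compl_compl]
    exact (cn_symm (hFF a ha)).trans (hFF b hb)
  · intro a b ha hb hab
    rw [Set.notMem_compl_iff] at hb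
    have haA₁ : a ∈ A₁ := by
      by_contra h
      exact ha (Relation.ReflTransGen.tail hb ⟨hFA hb, h, hab.symm⟩)
    refine ⟨hA₁A haA₁, fun hbA => hFA hb ?_⟩
    exact Relation.ReflTransGen.tail haA₁ ⟨hA₁A haA₁, hbA, hab⟩

/-- **Row R1.** -/
theorem r1 : R1.{u, v} := by
  intro G _ _ hG S hSf hS
  obtain ⟨R, hR⟩ := boundary_linked.{u, v} G hG S hSf hS
  refine ⟨R + 1, ?_⟩
  intro X _ _ F x y hx hy
  have : Nonempty X := ⟨x⟩
  have hc := sch_connected (X := X) hS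
  obtain ⟨D, hyD, hxD, h1, h2, h3⟩ := r1_cut hc F x y hx hy
  refine ⟨D, hxD, hyD, ?_, ?_⟩
  · rintro z ⟨s, hs, h | h⟩
    · have hadj : (sch S X).Adj z (s • z) := ⟨fun e => h.2 (e ▸ h.1), s, hs, rfl⟩
      obtain ⟨h4, h5⟩ := h3 z (s • z) h.1 h.2 hadj
      exact ⟨s, hs, Or.inl ⟨h4, h5⟩⟩
    · have hadj : (sch S X).Adj z (s • z) := ⟨fun e => h.1 (e.symm ▸ h.2), s, hs, rfl⟩
      obtain ⟨h4, h5⟩ := h3 (s • z) z h.2 h.1 hadj.symm
      exact ⟨s, hs, Or.inr ⟨h5, h4⟩⟩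
  · have hb : bdry S D ⊆ fb S D := by
      rintro z ⟨hz, s, hs, h | h⟩
      · exact ⟨s, Or.inl hs, Or.inl ⟨hz, h⟩⟩
      · exact ⟨s⁻¹, Or.inr (by rw [inv_inv]; exact hs), Or.inl ⟨hz, h⟩⟩
    have key := hR X D (fun a ha b hb => linked_cn (h1 a ha b hb))
      (fun a ha b hb => linked_cn (h2 a ha b hb))
    -- every point is next to a point of `bdry`
    have near : ∀ z ∈ fb S D, ∃ z' ∈ bdry S D, hop S (R + 1) z z' ∧ hop S (R + 1) z' z := by
      rintro z ⟨s, hs, h | h⟩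
      · refine ⟨z, ⟨h.1, ?_⟩, ⟨[], by simp, by simp, by simp⟩, ⟨[], by simp, by simp, by simp⟩⟩
        rcases hs with hs | hs
        · exact ⟨s, hs, Or.inl h.2⟩
        · exact ⟨s⁻¹, hs, Or.inr (by rw [inv_inv]; exact h.2)⟩
      · refine ⟨s • z, ⟨h.2, ?_⟩, ⟨[s], by simpa using hs, by simp, by simp⟩,
          ⟨[s⁻¹], ?_, by simp, by simp⟩⟩
        · rcases hs with hs | hs
          · exact ⟨s, hs, Or.inr (by rw [inv_smul_smul]; exact h.1)⟩
          · exact ⟨s⁻¹, hs, Or.inl (by rw [inv_smul_smul]; exact h.1)⟩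
        · intro t ht
          rw [List.mem_singleton] at ht
          rw [ht, inv_inv]
          exact hs.symm
    intro a ha b hb'
    obtain ⟨a', ha', e1, -⟩ := near a ha
    obtain ⟨b', hb'', -, e2⟩ := near b hb'
    have h4 : linked S (R + 1) (fb S D) a' b' :=
      Relation.ReflTransGen.mono (fun p q hpq => ⟨hb hpq.1, hb hpq.2.1,
        hop_le (Nat.le_succ R) hpq.2.2⟩) _ _ (key a' ha' b' hb'')
    exact Relation.ReflTransGen.head ⟨ha, hb ha', e1⟩ (h4.tail ⟨hb hb'', hb', e2⟩)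

end Vale.Agent.P192.R2.H360.R
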